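import Vale.Agent.P218.H333.SG.FinG

/-! # Uniqueness of tangent flows of symmetric flows: only the symmetric Jacobi fields matter

`E` is a Euclidean space of dimension `m + 1` and `(μ_t)` is any `m`-dimensional integral Brakke
flow of finite mass in `E` (in particular any weak flow of problem P218, where `E = ℝ³` and
`m = 2`); `(x₀, t₀)` is any space-time point with `t₀ > 0`. `Γ` is a set of linear isometries of
`E` such that `μ_t` is invariant under each `x ↦ x₀ + g (x - x₀)`, `g ∈ Γ`, for all `t < t₀`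
near `t₀`, and `χ(g) = ±1` is a sign for each `g ∈ Γ`.

**First part.** Let `P` be a finite-dimensional parameter space and `S_a = {w_a = 0}`, `a ∈ P`,
`‖a‖ < r`, a `C³` family of self-shrinking hypersurfaces with a uniform tubular neighbourhood
(`IsShrinkerFamily`) such that `w_a ∘ g = χ(g) w_a` for `g ∈ Γ`; nothing is assumed about their
topology or their ends. Suppose that
* some tangent flow at `(x₀, t₀)` has the time `-1` slice `H^m ⌞ S_0`;
* every Jacobi field `u` of `S_0` which is square integrable for the Gaussian area *and has the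
  same symmetries* `u ∘ g = χ(g) u`, `g ∈ Γ`, is the velocity `∂_b w_0` of the family in some
  direction `b`, up to an infinitesimal rotation commuting with `Γ`.
Then the tangent flow at `(x₀, t₀)` is unique in the fixed coordinates of `E`, and all its time
`-1` slices are `H^m ⌞ S_0`.

**Second part.** The same conclusion for `S = {w = 0}`, `w ∘ g = χ(g) w`, with a uniform tubular
neighbourhood, if the Jacobi fields with the same symmetries, modulo the infinitesimal rotations
commuting with `Γ`, are spanned by `v_1, …, v_k` (`IsEquivariantJacobiBasis`) and are obstructed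
to second order (`SecondOrderNondegenerate`): there is no nonzero `u` in the span of the `v_i`
with `cubicForm u u v_i = 0` for all `i`.

Nothing is assumed on the Jacobi fields without the symmetries. For `Γ = ∅` the two parts are the
results `IntegrableModel` and `SecondOrderModel`. -/

open MeasureTheory Set Filter Topology
open scoped ENNReal NNReal

namespace Vale.Agent.Results.P218.EquivariantModel

open Vale.Agent.P218 Vale.Agent.P218.H63 Vale.Agent.P218.H333 Vale.Agent.P218.H588
open Vale.Agent.P218.SG (IsEquivariantJacobiBasis unique_of_second_order_eq)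

universe u₁ u₂

/-- Main theorem. -/
theorem result {E : Type u₁} [NormedAddCommGroup E] [InnerProductSpace ℝ E]
    [FiniteDimensional ℝ E] [MeasurableSpace E] [BorelSpace E] (m : ℕ) (hm : 0 < m)
    (hE : Module.finrank ℝ E = m + 1)
    (μ : ℝ → Measure E) (hμ : IsIntegralBrakkeFlow m μ) (hfin : μ 0 univ < ⊤)
    (x₀ : E) (t₀ : ℝ) (ht₀ : 0 < t₀)
    (Γ : Set (E ≃ₗᵢ[ℝ] E)) (χ : (E ≃ₗᵢ[ℝ] E) → ℝ) (hχ : ∀ g ∈ Γ, χ g = 1 ∨ χ g = -1)
    (hsymm : ∀ g ∈ Γ, ∀ᶠ t in 𝓝[<] t₀, (μ t).map (fun x => x₀ + g (x - x₀)) = μ t) :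
    -- first part: the symmetric Jacobi fields are integrable
    (∀ (P : Type u₂) [NormedAddCommGroup P] [NormedSpace ℝ P] [FiniteDimensional ℝ P]
      (w : P → E → ℝ) (r δ C : ℝ) (q : ℕ), IsShrinkerFamily w r δ C q →
      (∀ g ∈ Γ, ∀ a : P, ‖a‖ < r → ∀ x, w a (g x) = χ g * w a x) →
      (∀ u : E → ℝ, IsJacobiField m {x | w 0 x = 0} (w 0) u →
        (∀ g ∈ Γ, ∀ᵐ x ∂(gaussArea m {x | w 0 x = 0}), u (g x) = χ g * u x) →
        ∃ (b : P) (A : E →L[ℝ] E), (∀ x, inner ℝ (A x) x = 0) ∧
          (∀ g ∈ Γ, ∀ x, A (g x) = g (A x)) ∧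
          u =ᵐ[gaussArea m {x | w 0 x = 0}]
            fun x => velocity w 0 b x + inner ℝ (A x) (gradient (w 0) x)) →
      (∃ ν : ℝ → Measure E, IsTangentFlow m μ x₀ t₀ ν ∧
        ν (-1) = (μH[m] : Measure E).restrict {x | w 0 x = 0}) →
      TangentFlowUnique m μ x₀ t₀ ∧
        ∀ ν : ℝ → Measure E, IsTangentFlow m μ x₀ t₀ ν →
          ν (-1) = (μH[m] : Measure E).restrict {x | w 0 x = 0}) ∧
    -- second part: the symmetric Jacobi fields are obstructed to second order
    (∀ (S : Set E) (w : E → ℝ) (δ C : ℝ) (q : ℕ), IsTubeShrinker S w δ C →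
      (∀ x, |w x| < δ → ‖fderiv ℝ (fderiv ℝ (gradient w)) x‖ ≤ C * (1 + ‖x‖) ^ q) →
      (∀ g ∈ Γ, ∀ x, w (g x) = χ g * w x) →
      ∀ (k : ℕ) (v : Fin k → E → ℝ), IsEquivariantJacobiBasis m S w δ C q Γ χ v →
      SecondOrderNondegenerate m S w v →
      (∃ ν : ℝ → Measure E, IsTangentFlow m μ x₀ t₀ ν ∧
        ν (-1) = (μH[m] : Measure E).restrict S) →
      TangentFlowUnique m μ x₀ t₀ ∧
        ∀ ν : ℝ → Measure E, IsTangentFlow m μ x₀ t₀ ν →
          ν (-1) = (μH[m] : Measure E).restrict S) := by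
  constructor
  · intro P _ _ _ w r δ C q hw hwΓ hint hmodel
    obtain ⟨ν₀, hν₀, hνS⟩ := hmodel
    have hU := unique_of_equivariant hm hE hw hχ hwΓ hint hμ hfin x₀ ht₀ hsymm ⟨ν₀, hν₀, hνS⟩
    exact ⟨hU, fun ν hν => (hU ν ν₀ hν hν₀ (-1) (by norm_num)).trans hνS⟩
  · intro S w δ C q hS h3 hwΓ k v hv hnd hmodel
    obtain ⟨ν₀, hν₀, hνS⟩ := hmodel
    have hU := unique_of_second_order_eq hm hE hS h3 hv hnd hχ hwΓ hμ hfin x₀ ht₀ hsymm
      ⟨ν₀, hν₀, hνS⟩
    exact ⟨hU, fun ν hν => (hU ν ν₀ hν hν₀ (-1) (by norm_num)).trans hνS⟩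

end Vale.Agent.Results.P218.EquivariantModel
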