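import Vale.Agent.P218.H333.IntMain

/-! # Uniqueness of tangent flows with an integrable model, whatever its ends

`E` is a Euclidean space of dimension `m + 1` and `(μ_t)` is any `m`-dimensional integral Brakke
flow of finite mass in `E` (in particular any weak flow of problem P218, where `E = ℝ³` and
`m = 2`); `(x₀, t₀)` is any space-time point with `t₀ > 0`.

Let `P` be a finite-dimensional parameter space and `S_a = {w_a = 0}`, `a ∈ P`, `‖a‖ < r`, a `C³`
family of self-shrinking hypersurfaces with a uniform tubular neighbourhood (`IsShrinkerFamily`);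
nothing is assumed about their topology or their ends. Suppose that
* some tangent flow at `(x₀, t₀)` has the time `-1` slice `H^m ⌞ S_0`;
* the model `S_0` is integrable within the family: every Jacobi field of `S_0` which is square
  integrable for the Gaussian area is the velocity `∂_b w_0` of the family in some direction `b`,
  up to an infinitesimal rotation.

Then the tangent flow at `(x₀, t₀)` is unique in the fixed coordinates of `E`, not only up to
rotations or up to a change of the parameter `a`, and all its time `-1` slices are `H^m ⌞ S_0`.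

For `P = 0` this is the case of a model without Jacobi fields other than rotations. -/

open MeasureTheory Set Filter Topology
open scoped ENNReal NNReal

namespace Vale.Agent.Results.P218.IntegrableModel

open Vale.Agent.P218 Vale.Agent.P218.H63 Vale.Agent.P218.H333

/-- Main theorem. -/
theorem result {E : Type*} [NormedAddCommGroup E] [InnerProductSpace ℝ E] [FiniteDimensional ℝ E]
    [MeasurableSpace E] [BorelSpace E] (m : ℕ) (hm : 0 < m) (hE : Module.finrank ℝ E = m + 1)
    (μ : ℝ → Measure E) (hμ : IsIntegralBrakkeFlow m μ) (hfin : μ 0 univ < ⊤)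
    (x₀ : E) (t₀ : ℝ) (ht₀ : 0 < t₀)
    {P : Type*} [NormedAddCommGroup P] [NormedSpace ℝ P] [FiniteDimensional ℝ P]
    (w : P → E → ℝ) (r δ C : ℝ) (q : ℕ) (hw : IsShrinkerFamily w r δ C q)
    (hint : ∀ u : E → ℝ, IsJacobiField m {x | w 0 x = 0} (w 0) u →
      ∃ (b : P) (A : E →L[ℝ] E), (∀ x, inner ℝ (A x) x = 0) ∧
        u =ᵐ[gaussArea m {x | w 0 x = 0}]
          fun x => velocity w 0 b x + inner ℝ (A x) (gradient (w 0) x))
    (hmodel : ∃ ν : ℝ → Measure E, IsTangentFlow m μ x₀ t₀ ν ∧
      ν (-1) = (μH[m] : Measure E).restrict {x | w 0 x = 0}) :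
    TangentFlowUnique m μ x₀ t₀ ∧
      ∀ ν : ℝ → Measure E, IsTangentFlow m μ x₀ t₀ ν →
        ν (-1) = (μH[m] : Measure E).restrict {x | w 0 x = 0} := by
  obtain ⟨ν₀, hν₀, hνS⟩ := hmodel
  have hU := unique_of_integrable hm hE hw hint hμ hfin x₀ ht₀ ⟨ν₀, hν₀, hνS⟩
  exact ⟨hU, fun ν hν => (hU ν ν₀ hν hν₀ (-1) (by norm_num)).trans hνS⟩

end Vale.Agent.Results.P218.IntegrableModel
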