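import Vale.Agent.P218.H63.Fin

/-! # Uniqueness of tangent flows with a nondegenerate model, whatever its ends

`E` is a Euclidean space of dimension `m + 1` and `(μ_t)` is any `m`-dimensional integral Brakke
flow of finite mass in `E` (in particular any weak flow of problem P218, where `E = ℝ³` and
`m = 2`); `(x₀, t₀)` is any space-time point with `t₀ > 0`.

Suppose that some tangent flow at `(x₀, t₀)` has the time `-1` slice `H^m ⌞ S`, where
* `S` is a self-shrinking hypersurface with a uniform tubular neighbourhood (`IsTubeShrinker`):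
  nothing is assumed about the topology or the ends of `S`, so it may be compact, or have conical
  and cylindrical ends at the same time, or infinitely many ends;
* every Jacobi field of `S` which is square integrable for the Gaussian area comes from a rotation
  (`RotationallyNondegenerate`).

Then the tangent flow at `(x₀, t₀)` is unique in the fixed coordinates of `E`, not only up to
rotations, and all its time `-1` slices are `H^m ⌞ S`. -/

open MeasureTheory Set Filter Topology
open scoped ENNReal

namespace Vale.Agent.Results.P218.NondegenerateModel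

open Vale.Agent.P218 Vale.Agent.P218.H63

/-- Main theorem. -/
theorem result {E : Type*} [NormedAddCommGroup E] [InnerProductSpace ℝ E] [FiniteDimensional ℝ E]
    [MeasurableSpace E] [BorelSpace E] (m : ℕ) (hm : 0 < m) (hE : Module.finrank ℝ E = m + 1)
    (μ : ℝ → Measure E) (hμ : IsIntegralBrakkeFlow m μ) (hfin : μ 0 univ < ⊤)
    (x₀ : E) (t₀ : ℝ) (ht₀ : 0 < t₀)
    (S : Set E) (w : E → ℝ) (δ C : ℝ) (hS : IsTubeShrinker S w δ C)
    (hnd : RotationallyNondegenerate m S w)
    (hmodel : ∃ ν : ℝ → Measure E, IsTangentFlow m μ x₀ t₀ ν ∧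
      ν (-1) = (μH[m] : Measure E).restrict S) :
    TangentFlowUnique m μ x₀ t₀ ∧
      ∀ ν : ℝ → Measure E, IsTangentFlow m μ x₀ t₀ ν → ν (-1) = (μH[m] : Measure E).restrict S := by
  obtain ⟨ν₀, hν₀, hνS⟩ := hmodel
  have hU := unique_of_nondegenerate hm hE hS hnd hμ hfin x₀ ht₀ ⟨ν₀, hν₀, hνS⟩
  exact ⟨hU, fun ν hν => (hU ν ν₀ hν hν₀ (-1) (by norm_num)).trans hνS⟩

end Vale.Agent.Results.P218.NondegenerateModel
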