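import Vale.Agent.P218.H588.Fin
import Vale.Agent.P218.CY.Cyl
import Vale.Agent.P218.CY.Hyp

/-! # Uniqueness of tangent flows with a second-order nondegenerate model, whatever its ends

**First part.** `E` is a Euclidean space of dimension `m + 1` and `(μ_t)` is any `m`-dimensional
integral Brakke flow of finite mass in `E` (in particular any weak flow of problem P218, where
`E = ℝ³` and `m = 2`); `(x₀, t₀)` is any space-time point with `t₀ > 0`.

Suppose that some tangent flow at `(x₀, t₀)` has the time `-1` slice `H^m ⌞ S`, where
(`IsSecondOrderModel`)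
* `S` is a self-shrinking hypersurface with a uniform tubular neighbourhood (`IsTubeShrinker`), the
  third derivatives of the signed distance to `S` growing at most polynomially; nothing is assumed
  about the topology or the ends of `S`;
* `v_1, …, v_k` is an orthonormal basis of the Jacobi fields of `S` which are square integrable for
  the Gaussian area and orthogonal to the infinitesimal rotations (`IsJacobiBasis`);
* these Jacobi fields are obstructed to second order (`SecondOrderNondegenerate`): there is no
  nonzero `u` in their span with `cubicForm u u v_i = 0` for all `i`.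

Then the tangent flow at `(x₀, t₀)` is unique in the fixed coordinates of `E`, not only up to
rotations, and all its time `-1` slices are `H^m ⌞ S`. Here the Jacobi fields are not integrable:
the model is a degenerate critical point of the Gaussian area, as the round cylinder is.

**Second part.** The round cylinder `{x₀² + x₁² = 2}` in `ℝ³` satisfies all these hypotheses, with
`m = 2` and `k = 1`: up to rotations its only square integrable Jacobi field is `x₂² - 2`, and it
is obstructed to second order. -/

open MeasureTheory Set Filter Topology
open scoped ENNReal NNReal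

namespace Vale.Agent.Results.P218.SecondOrderModel

open Vale.Agent.P218 Vale.Agent.P218.H63 Vale.Agent.P218.H588
open Vale.Agent.P218.CY (IsSecondOrderModel)

universe u

/-- Main theorem. -/
theorem result :
    -- first part: uniqueness of the tangent flow
    (∀ (E : Type u) [NormedAddCommGroup E] [InnerProductSpace ℝ E] [FiniteDimensional ℝ E]
      [MeasurableSpace E] [BorelSpace E] (m : ℕ), 0 < m → Module.finrank ℝ E = m + 1 →
      ∀ μ : ℝ → Measure E, IsIntegralBrakkeFlow m μ → μ 0 univ < ⊤ →
      ∀ (x₀ : E) (t₀ : ℝ), 0 < t₀ →
      ∀ (S : Set E) (k : ℕ), IsSecondOrderModel m k S →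
      (∃ ν : ℝ → Measure E, IsTangentFlow m μ x₀ t₀ ν ∧
        ν (-1) = (μH[m] : Measure E).restrict S) →
      TangentFlowUnique m μ x₀ t₀ ∧
        ∀ ν : ℝ → Measure E, IsTangentFlow m μ x₀ t₀ ν →
          ν (-1) = (μH[m] : Measure E).restrict S) ∧
    -- second part: the round cylinder satisfies the hypotheses on `S`, with `k = 1`
    IsSecondOrderModel 2 1 {x : EuclideanSpace ℝ (Fin 3) | x 0 ^ 2 + x 1 ^ 2 = 2} := by
  refine ⟨?_, Vale.Agent.P218.CY.cylinder⟩
  intro E _ _ _ _ _ m hm hE μ hμ hfin x₀ t₀ ht₀ S k hmod hmodel
  obtain ⟨w, δ, C, q, v, hS, hthird, hv, hnd⟩ := hmod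
  obtain ⟨ν₀, hν₀, hνS⟩ := hmodel
  have hU := unique_of_second_order hm hE hS hthird hv hnd hμ hfin x₀ ht₀ ⟨ν₀, hν₀, hνS⟩
  exact ⟨hU, fun ν hν => (hU ν ν₀ hν hν₀ (-1) (by norm_num)).trans hνS⟩

end Vale.Agent.Results.P218.SecondOrderModel
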